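import Vale.Agent.P069.Final

namespace Vale.Agent.Results.P069.AmucNotAuc

open Vale.Agent.P069

theorem result :
    ∃ (E : Type) (_ : NormedAddCommGroup E) (_ : NormedSpace ℝ E),
      CompleteSpace E ∧ ¬ FiniteDimensional ℝ E ∧ TopologicalSpace.SeparableSpace E ∧
      IsReflexiveSpace E ∧
      (∀ t : ℝ, 0 < t → ((min t 1 ^ 2 / 50 : ℝ) : EReal) ≤ amucModulus (fun x : E => ‖x‖) t) ∧
      AMUCRenormable E ∧ ¬ AUCRenormable E :=
  ⟨X, inferInstance, inferInstance, inferInstance, infinite_dim_X, separable_X, reflexive_X,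
    amuc_bound, amuc_X, not_auc⟩

end Vale.Agent.Results.P069.AmucNotAuc
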